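import Vale.Agent.P266.Main

/-- The Lipman-Zariski conjecture fails: there is a finitely generated integral `ℂ`-algebra whose module of
`ℂ`-derivations is free (hence projective) and which is not a regular ring. -/
theorem Vale.Agent.Results.P266.Counterexample.result :
    ∃ (A : Type) (_ : CommRing A) (_ : IsDomain A) (_ : Algebra ℂ A),
      Algebra.FiniteType ℂ A ∧ Module.Free A (Derivation ℂ A A) ∧
        Module.Projective A (Derivation ℂ A A) ∧ ¬ IsRegularRing A := by
  obtain ⟨A, _, _, _, h1, h2, h3⟩ := Vale.Agent.P266.counter
  exact ⟨A, _, inferInstance, _, h1, h2, inferInstance, h3⟩
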